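import Mathlib
import Vale.Agent.P074.SepDefs
import Vale.Agent.P074.OneDefs
import Vale.Agent.P074.WDefs
import Vale.Agent.P074.WFinal

/-!
# Stability exponents of quadratic optimal transport maps
-/

namespace Vale.Agent.Results.P074.All

open Vale.Agent.P074Sep

/-- In every dimension `d ≥ 2`:
(1) `1/4` is admissible and no `α > 1/3` is, so `1/4 ≤ α*_d ≤ 1/3`;
(2) `1/3` is admissible for pairs of targets one of which is uniformly separated discrete, and no
`α > 1/3` is admissible even if both are;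
(3) with `W₁` in place of `W₂`, `1/4` is admissible and no `α > 1/4` is. -/
theorem result (d : ℕ) (hd : 2 ≤ d) :
    (Admissible (EuclideanSpace ℝ (Fin d)) (1 / 4) ∧
      (∀ α : ℝ, 1 / 3 < α → α ≤ 1 → ¬ Admissible (EuclideanSpace ℝ (Fin d)) α) ∧
      1 / 4 ≤ alphaStar d ∧ alphaStar d ≤ 1 / 3) ∧
    (AdmissibleDisc (EuclideanSpace ℝ (Fin d)) (1 / 3) ∧
      ∀ α : ℝ, 1 / 3 < α → α ≤ 1 → ¬ AdmissibleSep (EuclideanSpace ℝ (Fin d)) α) ∧
    (AdmissibleW1 (EuclideanSpace ℝ (Fin d)) (1 / 4) ∧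
      ∀ α : ℝ, 1 / 4 < α → α ≤ 1 → ¬ AdmissibleW1 (EuclideanSpace ℝ (Fin d)) α) := by
  refine ⟨⟨admissible_quarter d hd, fun α h1 h2 => not_admissible d hd α h1 h2, ?_, ?_⟩,
    ⟨admissibleDisc_third d hd, fun α h1 h2 => not_admissibleSep d hd α h1 h2⟩,
    ⟨admissibleW1_quarter d hd, fun α h1 h2 => not_admissibleW1 d hd α h1 h2⟩⟩
  · unfold alphaStar
    refine le_csSup ⟨1, ?_⟩ ⟨by norm_num, by norm_num, admissible_quarter d hd⟩
    rintro α ⟨_, h, _⟩
    exact h
  · unfold alphaStar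
    refine Real.sSup_le ?_ (by norm_num)
    rintro α ⟨_, h1, h2⟩
    by_contra h
    exact not_admissible d hd α (not_le.mp h) h1 h2

end Vale.Agent.Results.P074.All
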