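import Mathlib
import Vale.Agent.P074.SepDefs
import Vale.Agent.P074.OneDefs
import Vale.Agent.P074.OneFinal

/-!
# Stability exponents of quadratic optimal transport maps: `1/4 ≤ α*_d ≤ 1/3`, and the sharp
exponent `1/3` when one of the two targets is uniformly separated
-/

namespace Vale.Agent.Results.P074.Discrete

open Vale.Agent.P074Sep

/-- In every dimension `d ≥ 2`:
(1) the exponent `1/4` is admissible and no exponent `α > 1/3` is; in particular `1/2` is not
admissible, and `1/4 ≤ α*_d ≤ 1/3`;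
(2) the exponent `1/3` is admissible for pairs of targets one of which is uniformly separated
discrete (the other being arbitrary), and no exponent `α > 1/3` is admissible even if both
targets are uniformly separated discrete; so for both of these classes of pairs the optimal
exponent is exactly `1/3`. -/
theorem result (d : ℕ) (hd : 2 ≤ d) :
    (Admissible (EuclideanSpace ℝ (Fin d)) (1 / 4) ∧
      (∀ α : ℝ, 1 / 3 < α → α ≤ 1 → ¬ Admissible (EuclideanSpace ℝ (Fin d)) α) ∧
      ¬ Admissible (EuclideanSpace ℝ (Fin d)) (1 / 2) ∧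
      1 / 4 ≤ alphaStar d ∧ alphaStar d ≤ 1 / 3) ∧
    (AdmissibleDisc (EuclideanSpace ℝ (Fin d)) (1 / 3) ∧
      (∀ α : ℝ, 1 / 3 < α → α ≤ 1 → ¬ AdmissibleSep (EuclideanSpace ℝ (Fin d)) α) ∧
      IsGreatest {α : ℝ | 0 < α ∧ α ≤ 1 ∧ AdmissibleDisc (EuclideanSpace ℝ (Fin d)) α} (1 / 3) ∧
      IsGreatest {α : ℝ | 0 < α ∧ α ≤ 1 ∧ AdmissibleSep (EuclideanSpace ℝ (Fin d)) α} (1 / 3)) := by
  have hD := admissibleDisc_third d hd
  have hS := sep_of_disc _ _ hD
  refine ⟨⟨admissible_quarter d hd, fun α h1 h2 => not_admissible d hd α h1 h2,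
    not_admissible d hd (1 / 2) (by norm_num) (by norm_num), ?_, ?_⟩,
    hD, fun α h1 h2 => not_admissibleSep d hd α h1 h2,
    ⟨⟨by norm_num, by norm_num, hD⟩, ?_⟩, ⟨⟨by norm_num, by norm_num, hS⟩, ?_⟩⟩
  · unfold alphaStar
    refine le_csSup ⟨1, ?_⟩ ⟨by norm_num, by norm_num, admissible_quarter d hd⟩
    rintro α ⟨_, h, _⟩
    exact h
  · unfold alphaStar
    refine Real.sSup_le ?_ (by norm_num)
    rintro α ⟨_, h1, h2⟩
    by_contra h
    exact not_admissible d hd α (not_le.mp h) h1 h2
  · rintro α ⟨_, h1, h2⟩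
    by_contra h
    exact not_admissibleSep d hd α (not_le.mp h) h1 (sep_of_disc _ _ h2)
  · rintro α ⟨_, h1, h2⟩
    by_contra h
    exact not_admissibleSep d hd α (not_le.mp h) h1 h2

end Vale.Agent.Results.P074.Discrete
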